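import Vale.Agent.P061.Defs
import Vale.Agent.P061.CLUS
import Vale.Agent.P061.FOREST
import Vale.Agent.P061.EXT
import Vale.Agent.P061.LOW
import Vale.Agent.P061.FIN

/-!
P061 (strong thin tree conjecture), dense case.

(1) For every `delta > 0`, every `k`-edge-connected finite loopless multigraph on `n ≥ 2` vertices in
which every pair of vertices is joined by at most `k / (delta n)` parallel edges has a
`(74 / delta ^ 2) / k`-thin spanning tree.  (Simple graphs: `n ≤ k / delta`.)

(2) Every spanning tree of the complete graph on `k + 1` vertices has thinness at least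
`4 k / (k + 1) ^ 2`; so the constant of the strong thin tree conjecture is at least `4`.
-/

namespace Vale.Agent.Results.P061.DenseThinTrees

open Vale.P061

universe u

theorem result :
    (∀ delta : ℝ, 0 < delta → ∀ (V : Type u) [Fintype V] [DecidableEq V] (mu : V → V → ℕ) (k : ℕ),
      IsMulti mu → 2 ≤ Fintype.card V → 1 ≤ k → EdgeConn mu k →
      (∀ u v, delta * (Fintype.card V : ℝ) * (mu u v : ℝ) ≤ (k : ℝ)) →
      ∃ T : SimpleGraph V, IsSpanTree mu T ∧ Thin mu T (74 / delta ^ 2 / (k : ℝ))) ∧
    (∀ k : ℕ, 1 ≤ k → ∀ T : SimpleGraph (Fin (k + 1)),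
      IsSpanTree (fun u v => if u = v then 0 else 1) T →
      ∀ alpha : ℝ, Thin (fun u v => if u = v then 0 else 1) T alpha →
        4 * (k : ℝ) / ((k : ℝ) + 1) ^ 2 ≤ alpha) := by
  refine ⟨?_, LOW.thm⟩
  intro delta hd V _ _ mu k hmu hV hk hc hM
  exact FIN.main CLUS.thm FOREST.thm EXT.thm delta hd hmu hV hk hc hM

end Vale.Agent.Results.P061.DenseThinTrees
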